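import Mathlib.Topology.LocallyFinite
import Mathlib.Data.Set.Card

/-!
# D3: the locally finite sum theorem for covering dimension
-/

open scoped Topology
open Set Filter

namespace Vale.Agent.P210.R2.H86

/-- D3: the locally finite sum theorem. -/
theorem glue_cover {X : Type} [TopologicalSpace X] {k : ℕ} (C : ℕ → Set X)
    (hC : ∀ i, IsClosed (C i)) (hlf : LocallyFinite C) (hcov : (⋃ i, C i) = univ)
    (hdim : ∀ i, ∀ (A : Type) (U : A → Set X), (∀ a, IsOpen (U a)) → C i ⊆ (⋃ a, U a) →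
      ∃ W : A → Set X, (∀ a, IsOpen (W a)) ∧ (∀ a, W a ⊆ U a) ∧ C i ⊆ (⋃ a, W a) ∧
        ∀ x ∈ C i, {a | x ∈ W a}.Finite ∧ {a | x ∈ W a}.ncard ≤ k + 1)
    {A : Type} {U : A → Set X} (hU : ∀ a, IsOpen (U a)) (hUc : (⋃ a, U a) = univ) :
    ∃ W : A → Set X, (∀ a, IsOpen (W a)) ∧ (∀ a, W a ⊆ U a) ∧ (⋃ a, W a) = univ ∧
      ∀ x, {a | x ∈ W a}.Finite ∧ {a | x ∈ W a}.ncard ≤ k + 1 := by
  classical
  -- one step
  have step : ∀ (i : ℕ) (V : {V : A → Set X // (∀ a, IsOpen (V a)) ∧ (⋃ a, V a) = univ}),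
      ∃ V' : {V : A → Set X // (∀ a, IsOpen (V a)) ∧ (⋃ a, V a) = univ},
        (∀ a, V'.1 a ⊆ V.1 a) ∧ (∀ a, ∀ x ∈ V.1 a, x ∉ C i → x ∈ V'.1 a) ∧
        ∀ x ∈ C i, {a | x ∈ V'.1 a}.Finite ∧ {a | x ∈ V'.1 a}.ncard ≤ k + 1 := by
    rintro i ⟨V, hVo, hVc⟩
    obtain ⟨W, hWo, hWV, hWc, hord⟩ := hdim i A V hVo (by rw [hVc]; exact subset_univ _)
    refine ⟨⟨fun a => V a ∩ ((C i)ᶜ ∪ W a), fun a => ?_, ?_⟩, ?_, ?_, ?_⟩
    · exact (hVo a).inter ((hC i).isOpen_compl.union (hWo a))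
    · refine eq_univ_of_forall fun x => ?_
      by_cases hx : x ∈ C i
      · obtain ⟨a, ha⟩ := mem_iUnion.mp (hWc hx)
        exact mem_iUnion.mpr ⟨a, hWV a ha, Or.inr ha⟩
      · have h1 : x ∈ ⋃ a, V a := by rw [hVc]; exact mem_univ x
        obtain ⟨a, ha⟩ := mem_iUnion.mp h1
        exact mem_iUnion.mpr ⟨a, ha, Or.inl hx⟩
    · intro a x hx
      exact hx.1
    · intro a x hx hxC
      exact ⟨hx, Or.inl hxC⟩
    · intro x hx
      have hsub : {a | x ∈ V a ∩ ((C i)ᶜ ∪ W a)} ⊆ {a | x ∈ W a} := by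
        intro a ha
        rcases ha.2 with h | h
        · exact absurd hx h
        · exact h
      obtain ⟨h1, h2⟩ := hord x hx
      exact ⟨h1.subset hsub, (Set.ncard_le_ncard hsub h1).trans h2⟩
  choose nxt hn1 hn2 hn3 using step
  let T : ℕ → {V : A → Set X // (∀ a, IsOpen (V a)) ∧ (⋃ a, V a) = univ} :=
    fun n => Nat.rec ⟨U, hU, hUc⟩ (fun i V => nxt i V) n
  have hT0 : (T 0).1 = U := rfl
  have hTs : ∀ i, T (i + 1) = nxt i (T i) := fun i => rfl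
  have hmono : ∀ i j, i ≤ j → ∀ a, (T j).1 a ⊆ (T i).1 a := by
    intro i j hij
    induction hij with
    | refl => exact fun a => Subset.rfl
    | step _ ih =>
      intro a
      rw [hTs]
      exact (hn1 _ _ a).trans (ih a)
  have hstab : ∀ (m : ℕ) (x : X), (∀ i, m ≤ i → x ∉ C i) → ∀ a, x ∈ (T m).1 a →
      ∀ j, x ∈ (T j).1 a := by
    intro m x hm a hx j
    rcases le_total j m with h | h
    · exact hmono j m h a hx
    · induction h with
      | refl => exact hx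
      | step h ih =>
        rw [hTs]
        exact hn2 _ _ a x ih (hm _ h)
  -- near each point the sequence is eventually constant
  have hloc : ∀ x : X, ∃ N ∈ 𝓝 x, ∃ m : ℕ, ∀ y ∈ N, ∀ i, m ≤ i → y ∉ C i := by
    intro x
    obtain ⟨N, hN, hfin⟩ := hlf x
    obtain ⟨m, hm⟩ := hfin.bddAbove
    refine ⟨N, hN, m + 1, fun y hy i hi hyC => ?_⟩
    have : i ≤ m := hm ⟨y, hyC, hy⟩
    omega
  refine ⟨fun a => ⋂ j, (T j).1 a, fun a => ?_, fun a => ?_, ?_, fun x => ?_⟩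
  · rw [isOpen_iff_mem_nhds]
    intro x hx
    obtain ⟨N, hN, m, hm⟩ := hloc x
    have h1 : x ∈ (T m).1 a := mem_iInter.mp hx m
    filter_upwards [hN, ((T m).2.1 a).mem_nhds h1] with y hy1 hy2
    exact mem_iInter.mpr (hstab m y (hm y hy1) a hy2)
  · intro x hx
    exact mem_iInter.mp hx 0
  · refine eq_univ_of_forall fun x => ?_
    obtain ⟨N, hN, m, hm⟩ := hloc x
    have h1 : x ∈ ⋃ a, (T m).1 a := by rw [(T m).2.2]; exact mem_univ x
    obtain ⟨a, ha⟩ := mem_iUnion.mp h1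
    exact mem_iUnion.mpr ⟨a, mem_iInter.mpr (hstab m x (hm x (mem_of_mem_nhds hN)) a ha)⟩
  · have h1 : x ∈ ⋃ i, C i := by rw [hcov]; exact mem_univ x
    obtain ⟨i, hi⟩ := mem_iUnion.mp h1
    obtain ⟨h2, h3⟩ := hn3 i (T i) x hi
    have hsub : {a | x ∈ ⋂ j, (T j).1 a} ⊆ {a | x ∈ (nxt i (T i)).1 a} := by
      intro a ha
      exact mem_iInter.mp ha (i + 1)
    exact ⟨h2.subset hsub, (Set.ncard_le_ncard hsub h2).trans h3⟩

end Vale.Agent.P210.R2.H86
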